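import Vale.Agent.P083.Main

namespace Vale.Agent.Results.P083.NoEmbedding

open Vale.Agent.P083

universe u

theorem result : ∃ (A : Type) (_ : CStarAlgebra A), TopologicalSpace.SeparableSpace A ∧
    ∀ (ω : Ultrafilter ℕ) (B : Type u) [CStarAlgebra B] [Nontrivial B] (s₁ s₂ : B),
      star s₁ * s₁ = 1 → star s₂ * s₂ = 1 → s₁ * star s₁ + s₂ * star s₂ = 1 →
      (StarAlgebra.adjoin ℂ {s₁, s₂}).topologicalClosure = ⊤ →
      ∀ φ : A →⋆ₐ[ℂ] Ultrapower ω B, ¬Function.Injective φ := by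
  have : IsClosed (alg : Set (L2 Y ℂ →L[ℂ] L2 Y ℂ)) := StarSubalgebra.isClosed_topologicalClosure _
  obtain ⟨a, t, q, h, hq⟩ := alg_rels
  exact ⟨alg, StarSubalgebra.cstarAlgebra alg, alg_sep, fun ω B _ _ s₁ s₂ h1 h2 h3 h4 φ hφ =>
    hq (hφ ((no_embed h φ h1 h2 h3 h4).trans (map_zero φ).symm))⟩

end Vale.Agent.Results.P083.NoEmbedding
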